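import Vale.Agent.H53.Kurosh.ElemAmenable
import Vale.Agent.H53.Kurosh.Dickson
import Vale.Agent.H53.Kurosh.Sided
import Vale.Agent.H53.Kurosh.Relative

/-!
# P199 (Kurosh's problem for division rings): four cases in one statement

Let `D` be a division ring and `F` a field acting centrally on `D` (`D` is an `F`-algebra).

1. If `D` is algebraic over `F` and a finite set `S` of units of `D` generates an elementary
   amenable subgroup of `Dˣ`, then the `F`-subalgebra generated by `S` is finite-dimensional
   over `F`.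
2. If `F` is the centre of `D`, `D` is algebraic over `F`, every irreducible polynomial `f` over
   `F` of degree at least `2` has a polynomial `p` with `f ∣ f(p(X))` and `f ∤ p(X) - X` (the
   field `F[X]/(f)` contains a second root of `f`), and every finite-dimensional `F`-algebra
   without zero divisors is commutative, then `D = F`.
3. If `F` is the centre of `D`, `K` is a subfield of `D`, not necessarily central (a field `K`
   with a ring homomorphism `ι : K →+* D`), and every multiplicative commutator `a b a⁻¹ b⁻¹`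
   satisfies a nonzero polynomial relation of degree at most `d` with coefficients from `K` on
   the left, or every one of them such a relation with coefficients on the right, or the same
   for the additive commutators `a b - b a`, then `D` has dimension at most `d ^ 2` over `F`.
4. If `F` is the centre of `D`, `K` is as in 3 and `N` is a normal subgroup of `Dˣ` not contained
   in the centre such that every commutator `x y x⁻¹ y⁻¹` with `x ∈ N` and `y` a unit satisfies
   such a relation on the left, or every one of them such a relation on the right, then `D` has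
   dimension at most `(4 d + 1) ^ 2` over `F`.

The four parts are the statements of the hand-ins `A_ElemAmenableUnits`,
`B_CentreNoRigidExtensions`, `C_CommutatorsLeftAlgebraic` and `D_NormalSubgroupLeftAlgebraic`,
with `F` and `D` shared; the proofs are in `Vale.Agent.H53.Kurosh`.
-/

namespace Vale.Agent.Results.P199.A0_FourCases

universe u v w

open Polynomial

theorem result (F : Type v) (D : Type u) [Field F] [DivisionRing D] [Algebra F D] :
    (Algebra.IsAlgebraic F D → ∀ S : Finset Dˣ,
        Vale.Agent.H53.IsElementaryAmenable (Subgroup.closure (S : Set Dˣ)) →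
        Module.Finite F (Algebra.adjoin F ((fun g : Dˣ => (g : D)) '' (S : Set Dˣ)))) ∧
    (Algebra.IsCentral F D → Algebra.IsAlgebraic F D →
        (∀ f : F[X], Irreducible f → 2 ≤ f.natDegree →
          ∃ p : F[X], f ∣ f.comp p ∧ ¬ f ∣ p - X) →
        (∀ (E : Type u) [Ring E] [IsDomain E] [Algebra F E] [Module.Finite F E],
          ∀ x y : E, x * y = y * x) →
        Function.Surjective (algebraMap F D)) ∧
    (Algebra.IsCentral F D → ∀ (K : Type w) [Field K] (ι : K →+* D) (d : ℕ),
        ((∀ a b : D, a ≠ 0 → b ≠ 0 → ∃ α : Fin (d + 1) → K, α ≠ 0 ∧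
              ∑ i : Fin (d + 1), ι (α i) * (a * b * a⁻¹ * b⁻¹) ^ (i : ℕ) = 0) ∨
          (∀ a b : D, a ≠ 0 → b ≠ 0 → ∃ α : Fin (d + 1) → K, α ≠ 0 ∧
              ∑ i : Fin (d + 1), (a * b * a⁻¹ * b⁻¹) ^ (i : ℕ) * ι (α i) = 0) ∨
          (∀ a b : D, ∃ α : Fin (d + 1) → K, α ≠ 0 ∧
              ∑ i : Fin (d + 1), ι (α i) * (a * b - b * a) ^ (i : ℕ) = 0) ∨
          (∀ a b : D, ∃ α : Fin (d + 1) → K, α ≠ 0 ∧
              ∑ i : Fin (d + 1), (a * b - b * a) ^ (i : ℕ) * ι (α i) = 0)) →
        Module.Finite F D ∧ Module.finrank F D ≤ d ^ 2) ∧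
    (Algebra.IsCentral F D → ∀ (K : Type w) [Field K] (ι : K →+* D) (d : ℕ)
        (N : Subgroup Dˣ) [N.Normal], (∃ x ∈ N, ∃ a : D, a * (x : D) ≠ (x : D) * a) →
        ((∀ x ∈ N, ∀ y : Dˣ, ∃ α : Fin (d + 1) → K, α ≠ 0 ∧
              ∑ i : Fin (d + 1), ι (α i) * ((x * y * x⁻¹ * y⁻¹ : Dˣ) : D) ^ (i : ℕ) = 0) ∨
          (∀ x ∈ N, ∀ y : Dˣ, ∃ α : Fin (d + 1) → K, α ≠ 0 ∧
              ∑ i : Fin (d + 1), ((x * y * x⁻¹ * y⁻¹ : Dˣ) : D) ^ (i : ℕ) * ι (α i) = 0)) →
        Module.Finite F D ∧ Module.finrank F D ≤ (4 * d + 1) ^ 2) := by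
  refine ⟨?_, ?_, ?_, ?_⟩
  · intro hAlg S hS
    have h1 := Vale.Agent.H53.Kurosh.FD_of_isElementaryAmenable (F := F) S hS
    have h2 : Subalgebra.toSubmodule
        (Algebra.adjoin F ((fun g : Dˣ => (g : D)) '' (S : Set Dˣ))) ≤
        Subalgebra.toSubmodule (Vale.Agent.H53.Kurosh.alg F
          ((Subgroup.closure (S : Set Dˣ) : Subgroup Dˣ) : Set Dˣ)) :=
      Algebra.adjoin_mono (Set.image_mono Subgroup.subset_closure)
    exact Module.Finite.iff_fg.mpr (Vale.Agent.H53.Kurosh.fg_of_le_fg h1 h2)
  · intro hC hAlg hAut hBr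
    exact Vale.Agent.H53.Kurosh.surjective_algebraMap_of_forall_comm hAut hBr
  · intro hC K _ ι d h
    exact Vale.Agent.H53.Kurosh.finite_of_commutators_sided ι d h
  · intro hC K _ ι d N _ hnc h
    exact Vale.Agent.H53.Kurosh.finite_of_relative_commutators_sided ι d N hnc h

end Vale.Agent.Results.P199.A0_FourCases
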