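import Vale.Agent.H53.Kurosh.ElemAmenable

/-!
# P199 (Kurosh's problem for division rings): elementary amenable groups of units

Let `D` be a division ring which is algebraic over a field `F` acting centrally on `D`
(for instance the centre of `D`).  If a finite set `S` of units of `D` generates an elementary
amenable subgroup of `Dˣ`, then the `F`-subalgebra generated by `S` is finite-dimensional
over `F`.
-/

namespace Vale.Agent.Results.P199.A_ElemAmenableUnits

universe u v

theorem result (F : Type v) (D : Type u) [Field F] [DivisionRing D] [Algebra F D]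
    [Algebra.IsAlgebraic F D] (S : Finset Dˣ)
    (hS : Vale.Agent.H53.IsElementaryAmenable (Subgroup.closure (S : Set Dˣ))) :
    Module.Finite F (Algebra.adjoin F ((fun g : Dˣ => (g : D)) '' (S : Set Dˣ))) := by
  have h1 := Vale.Agent.H53.Kurosh.FD_of_isElementaryAmenable (F := F) S hS
  have h2 : Subalgebra.toSubmodule (Algebra.adjoin F ((fun g : Dˣ => (g : D)) '' (S : Set Dˣ))) ≤
      Subalgebra.toSubmodule (Vale.Agent.H53.Kurosh.alg F
        ((Subgroup.closure (S : Set Dˣ) : Subgroup Dˣ) : Set Dˣ)) :=
    Algebra.adjoin_mono (Set.image_mono Subgroup.subset_closure)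
  exact Module.Finite.iff_fg.mpr (Vale.Agent.H53.Kurosh.fg_of_le_fg h1 h2)

end Vale.Agent.Results.P199.A_ElemAmenableUnits
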