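import Vale.Agent.H53.Kurosh.Dickson

/-!
# P199 (Kurosh's problem for division rings): centres without rigid extensions

Let `F` be a field such that

* for every irreducible polynomial `f` over `F` of degree at least `2` there is a polynomial `p`
  with `f ∣ f(p(X))` and `f ∤ p(X) - X` (the field `F[X]/(f)` contains a second root of `f`,
  i.e. it has a non-identity `F`-automorphism), and
* every finite-dimensional `F`-algebra without zero divisors is commutative.

Then every division ring with centre `F` which is algebraic over `F` is equal to `F`.
The proof (in `Vale.Agent.H53.Kurosh.Dickson`) uses Dickson's theorem on conjugacy of roots of a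
minimal polynomial: a noncentral `a` is conjugated by some `x` to another root lying in `F[a]`,
and then `F[a, x]` is a finite-dimensional noncommutative subalgebra.
-/

namespace Vale.Agent.Results.P199.B_CentreNoRigidExtensions

universe u v

open Polynomial

theorem result (F : Type v) (D : Type u) [Field F] [DivisionRing D] [Algebra F D]
    [Algebra.IsCentral F D] [Algebra.IsAlgebraic F D]
    (hAut : ∀ f : F[X], Irreducible f → 2 ≤ f.natDegree →
      ∃ p : F[X], f ∣ f.comp p ∧ ¬ f ∣ p - X)
    (hBr : ∀ (E : Type u) [Ring E] [IsDomain E] [Algebra F E] [Module.Finite F E],
      ∀ x y : E, x * y = y * x) :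
    Function.Surjective (algebraMap F D) :=
  Vale.Agent.H53.Kurosh.surjective_algebraMap_of_forall_comm hAut hBr

end Vale.Agent.Results.P199.B_CentreNoRigidExtensions
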