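import Vale.Agent.H53.Kurosh.Sided

/-!
# P199 (Kurosh's problem for division rings): commutators left or right algebraic of bounded
degree over a subfield

Let `D` be a division ring with centre `F`, and let `K` be a subfield of `D`, not necessarily
central, given as a field `K` with a ring homomorphism `ι : K →+* D`. Suppose that every
multiplicative commutator `a b a⁻¹ b⁻¹` (or every additive commutator `a b - b a`) satisfies a
nonzero polynomial relation of degree at most `d` with coefficients from `K` on the left (or
every one of them such a relation with coefficients on the right). Then `D` has dimension at most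
`d ^ 2` over `F`.

The proof is in `Vale.Agent.H53.Kurosh.Sided`, resting on `Vale.Agent.H53.Kurosh.Commutators`
(infinite centre) and `Vale.Agent.H7.Kurosh.FiniteCentre` (finite centre). It uses
* a descent from `K` to the centre (`Vale.Agent.H53.Kurosh.Descent`, and
  `Vale.Agent.H5.KuroshRight` for coefficients on the right): right multiplication by a
  commutator is a locally algebraic operator of bounded degree on the left `K`-space `D`;
* for an infinite centre: a maximal subfield `L`, the density of the `L`-span of right
  multiplications in the `L`-linear endomorphisms of `D`, and a generic point with coordinates in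
  `F`;
* for a finite centre: a Herstein-type argument showing that `D` is commutative.
-/

namespace Vale.Agent.Results.P199.C_CommutatorsLeftAlgebraic

universe u v w

theorem result (F : Type v) (D : Type u) [Field F] [DivisionRing D] [Algebra F D]
    [Algebra.IsCentral F D] (K : Type w) [Field K] (ι : K →+* D) (d : ℕ)
    (h : (∀ a b : D, a ≠ 0 → b ≠ 0 → ∃ α : Fin (d + 1) → K, α ≠ 0 ∧
            ∑ i : Fin (d + 1), ι (α i) * (a * b * a⁻¹ * b⁻¹) ^ (i : ℕ) = 0) ∨
         (∀ a b : D, a ≠ 0 → b ≠ 0 → ∃ α : Fin (d + 1) → K, α ≠ 0 ∧
            ∑ i : Fin (d + 1), (a * b * a⁻¹ * b⁻¹) ^ (i : ℕ) * ι (α i) = 0) ∨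
         (∀ a b : D, ∃ α : Fin (d + 1) → K, α ≠ 0 ∧
            ∑ i : Fin (d + 1), ι (α i) * (a * b - b * a) ^ (i : ℕ) = 0) ∨
         (∀ a b : D, ∃ α : Fin (d + 1) → K, α ≠ 0 ∧
            ∑ i : Fin (d + 1), (a * b - b * a) ^ (i : ℕ) * ι (α i) = 0)) :
    Module.Finite F D ∧ Module.finrank F D ≤ d ^ 2 :=
  Vale.Agent.H53.Kurosh.finite_of_commutators_sided ι d h

end Vale.Agent.Results.P199.C_CommutatorsLeftAlgebraic
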