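import Vale.Agent.H53.Kurosh.Relative

/-!
# P199 (Kurosh's problem for division rings): commutators with respect to a noncentral normal
subgroup that are left or right algebraic of bounded degree over a subfield

Let `D` be a division ring with centre `F`, let `K` be a subfield of `D`, not necessarily central,
given as a field `K` with a ring homomorphism `ι : K →+* D`, and let `N` be a normal subgroup of
the group of units of `D` which is not contained in the centre. Suppose that every commutator
`x y x⁻¹ y⁻¹` with `x` in `N` and `y` a unit of `D` satisfies a nonzero polynomial relation of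
degree at most `d` with coefficients from `K` on the left (or every such commutator a relation
with coefficients on the right). Then `D` has dimension at most `(4 d + 1) ^ 2` over `F`.

Since `N` is normal, these commutators lie in `N`; so the hypothesis holds in particular when
every element of `N` satisfies such a relation.

The proof is in `Vale.Agent.H53.Kurosh.Relative`, resting on `Vale.Agent.H53.Kurosh.Normal`: the
relations descend from `K` to the centre (`Vale.Agent.H53.Kurosh.Descent`,
`Vale.Agent.H5.KuroshRight`); for an infinite centre all commutators `x y - y x` with `x` in `N`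
have degree at most `d` over `F`, and a density and generic-point argument over a maximal subfield
bounds the dimension; for a finite centre the hypotheses cannot hold
(`Vale.Agent.H7.Kurosh.FiniteCentre`).
-/

namespace Vale.Agent.Results.P199.D_NormalSubgroupLeftAlgebraic

universe u v w

theorem result (F : Type v) (D : Type u) [Field F] [DivisionRing D] [Algebra F D]
    [Algebra.IsCentral F D] (K : Type w) [Field K] (ι : K →+* D) (d : ℕ)
    (N : Subgroup Dˣ) [N.Normal]
    (hnc : ∃ x ∈ N, ∃ a : D, a * (x : D) ≠ (x : D) * a)
    (h : (∀ x ∈ N, ∀ y : Dˣ, ∃ α : Fin (d + 1) → K, α ≠ 0 ∧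
            ∑ i : Fin (d + 1), ι (α i) * ((x * y * x⁻¹ * y⁻¹ : Dˣ) : D) ^ (i : ℕ) = 0) ∨
         (∀ x ∈ N, ∀ y : Dˣ, ∃ α : Fin (d + 1) → K, α ≠ 0 ∧
            ∑ i : Fin (d + 1), ((x * y * x⁻¹ * y⁻¹ : Dˣ) : D) ^ (i : ℕ) * ι (α i) = 0)) :
    Module.Finite F D ∧ Module.finrank F D ≤ (4 * d + 1) ^ 2 :=
  Vale.Agent.H53.Kurosh.finite_of_relative_commutators_sided ι d N hnc h

end Vale.Agent.Results.P199.D_NormalSubgroupLeftAlgebraic
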